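import Vale.Agent.P184.Final

namespace Vale.Agent.Results.P184.L1Bass

theorem result {G : Type*} [Group G] (q : ℕ)
    (e : Matrix (Fin q) (Fin q) (lp (fun _ : G => ℂ) 1))
    (he : ∀ (i j : Fin q) (g : G), ∑ k, ∑' h : G, e i k h * e k j (h⁻¹ * g) = e i j g) :
    ∃ F : Finset (ConjClasses G), (∀ C ∈ F, ∀ g ∈ C.carrier, IsOfFinOrder g) ∧
      ∀ C ∉ F, HasSum (fun g : C.carrier => ∑ i, e i i g) 0 :=
  Vale.Agent.P184.bass q (fun i j g => e i j g)
    (fun i j => by simpa using (lp.memℓp (e i j)).summable (by simp)) he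

end Vale.Agent.Results.P184.L1Bass
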